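import Vale.Agent.P069.Defs

namespace Vale.Agent.P069

variable {X Y : Type*} [NormedAddCommGroup X] [NormedSpace ℝ X]
  [NormedAddCommGroup Y] [NormedSpace ℝ Y]

theorem cof_top : (⊤ : Submodule ℝ X) ∈ cof X :=
  ⟨by simp, Submodule.CoFG.top⟩

theorem cof_inf {F G : Submodule ℝ X} (hF : F ∈ cof X) (hG : G ∈ cof X) : F ⊓ G ∈ cof X :=
  ⟨by rw [Submodule.coe_inf]; exact hF.1.inter hG.1, Submodule.CoFG.inf hF.2 hG.2⟩

theorem cof_comap (L : X →L[ℝ] Y) {F : Submodule ℝ Y} (hF : F ∈ cof Y) :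
    F.comap (L : X →ₗ[ℝ] Y) ∈ cof X := by
  refine ⟨hF.1.preimage L.continuous, ?_⟩
  have : FiniteDimensional ℝ (Y ⧸ F) := hF.2
  have e : F.comap (L : X →ₗ[ℝ] Y) = LinearMap.ker (F.mkQ ∘ₗ (L : X →ₗ[ℝ] Y)) := by
    rw [LinearMap.ker_comp, Submodule.ker_mkQ]
  rw [e]
  exact Submodule.CoFG.ker _

theorem cof_ker (L : X →L[ℝ] ℝ) : LinearMap.ker (L : X →ₗ[ℝ] ℝ) ∈ cof X :=
  ⟨L.isClosed_ker, Submodule.CoFG.ker _⟩

theorem cof_biInf {ι : Type*} (S : Finset ι) (G : ι → Submodule ℝ X)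
    (h : ∀ i ∈ S, G i ∈ cof X) : (⨅ i ∈ S, G i) ∈ cof X := by
  classical
  induction S using Finset.induction_on with
  | empty => simpa using cof_top
  | insert a S ha ih =>
    rw [Finset.iInf_insert]
    exact cof_inf (h a (Finset.mem_insert_self a S))
      (ih fun i hi => h i (Finset.mem_insert_of_mem hi))

end Vale.Agent.P069
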