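import Mathlib

/-!
# Branch sums on the tree `List ℕ`

The node `j :: s` is the `j`-th child of the node `s`; the root is `[]`.
-/

namespace Vale.Agent.P069

/-- Sum of `f` over the branch from the root to the node `s`. -/
def psum (f : List ℕ → ℝ) : List ℕ → ℝ
  | [] => f []
  | (j :: s) => f (j :: s) + psum f s

/-- Increments of `P` along the tree: the inverse of `psum`. -/
def incr (P : List ℕ → ℝ) : List ℕ → ℝ
  | [] => P []
  | (j :: s) => P (j :: s) - P s

@[simp] theorem psum_nil (f : List ℕ → ℝ) : psum f [] = f [] := rfl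
@[simp] theorem psum_cons (f : List ℕ → ℝ) (j : ℕ) (s : List ℕ) :
    psum f (j :: s) = f (j :: s) + psum f s := rfl
@[simp] theorem incr_nil (P : List ℕ → ℝ) : incr P [] = P [] := rfl
@[simp] theorem incr_cons (P : List ℕ → ℝ) (j : ℕ) (s : List ℕ) :
    incr P (j :: s) = P (j :: s) - P s := rfl

theorem psum_incr (P : List ℕ → ℝ) (s : List ℕ) : psum (incr P) s = P s := by
  induction s with
  | nil => rfl
  | cons j s ih => simp [ih]

theorem incr_psum (f : List ℕ → ℝ) (s : List ℕ) : incr (psum f) s = f s := by
  cases s with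
  | nil => rfl
  | cons j s => simp

theorem psum_lin (a b : ℝ) (f g : List ℕ → ℝ) (s : List ℕ) :
    psum (fun t => a * f t + b * g t) s = a * psum f s + b * psum g s := by
  induction s with
  | nil => rfl
  | cons j s ih => simp only [psum_cons, ih]; ring

theorem psum_neg (f : List ℕ → ℝ) (s : List ℕ) :
    psum (fun t => - f t) s = - psum f s := by
  induction s with
  | nil => rfl
  | cons j s ih => simp only [psum_cons, ih]; ring

theorem psum_congr {f g : List ℕ → ℝ} (h : ∀ t, f t = g t) (s : List ℕ) :
    psum f s = psum g s := by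
  have : f = g := funext h
  rw [this]

/-- crude bound of the branch sums -/
theorem abs_psum_le (f : List ℕ → ℝ) (M : ℝ) (hM : ∀ t, |f t| ≤ M) (s : List ℕ) :
    |psum f s| ≤ (s.length + 1) * M := by
  induction s with
  | nil => simpa using hM []
  | cons j s ih =>
    simp only [psum_cons, List.length_cons, Nat.cast_add, Nat.cast_one]
    have := hM (j :: s)
    calc |f (j :: s) + psum f s| ≤ |f (j :: s)| + |psum f s| := abs_add_le _ _
      _ ≤ M + (s.length + 1) * M := by linarith
      _ = (s.length + 1 + 1) * M := by ring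

/-- Downward closed sets of nodes. -/
def DC (A : Set (List ℕ)) : Prop := ∀ j s, j :: s ∈ A → s ∈ A

theorem psum_eq_zero_of_mem {A : Set (List ℕ)} (hA : DC A) {h : List ℕ → ℝ}
    (hh : ∀ s ∈ A, h s = 0) : ∀ s ∈ A, psum h s = 0 := by
  intro s
  induction s with
  | nil => intro hs; simpa using hh _ hs
  | cons j s ih =>
    intro hs
    simp [hh _ hs, ih (hA j s hs)]

theorem psum_indicator_of_mem {A : Set (List ℕ)} (hA : DC A) (f : List ℕ → ℝ) :
    ∀ s ∈ A, psum (A.indicator f) s = psum f s := by
  intro s
  induction s with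
  | nil => intro hs; simp [Set.indicator_of_mem hs]
  | cons j s ih =>
    intro hs
    simp [Set.indicator_of_mem hs, ih (hA j s hs)]

theorem psum_indicator {A : Set (List ℕ)} (hA : DC A) (f : List ℕ → ℝ) (s : List ℕ) :
    psum (A.indicator f) s = 0 ∨
      ∃ s' : List ℕ, s'.length ≤ s.length ∧ psum (A.indicator f) s = psum f s' := by
  induction s with
  | nil =>
    by_cases hs : ([] : List ℕ) ∈ A
    · exact Or.inr ⟨[], le_rfl, by simp [Set.indicator_of_mem hs]⟩
    · exact Or.inl (by simp [Set.indicator_of_notMem hs])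
  | cons j s ih =>
    by_cases hs : (j :: s) ∈ A
    · exact Or.inr ⟨j :: s, le_rfl, psum_indicator_of_mem hA f _ hs⟩
    · have e : psum (A.indicator f) (j :: s) = psum (A.indicator f) s := by
        simp [Set.indicator_of_notMem hs]
      rcases ih with h0 | ⟨s', hs', h1⟩
      · exact Or.inl (by rw [e, h0])
      · exact Or.inr ⟨s', by simp only [List.length_cons]; omega, by rw [e, h1]⟩

/-- The one-sided profile: positive part of `H` where `F < 0`, negative part where `F ≥ 0`. -/
noncomputable def prof (F H : List ℕ → ℝ) (s : List ℕ) : ℝ :=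
  if F s < 0 then max (H s) 0 else min (H s) 0

/-- The one-sided part of `h` relative to `f`. -/
noncomputable def gam (f h : List ℕ → ℝ) : List ℕ → ℝ :=
  incr (prof (psum f) (psum h))

theorem psum_gam (f h : List ℕ → ℝ) (s : List ℕ) :
    psum (gam f h) s = prof (psum f) (psum h) s := psum_incr _ _

theorem abs_gam_le {A : Set (List ℕ)} (hA : DC A) {f h : List ℕ → ℝ}
    (hf : ∀ s, s ∉ A → f s = 0) (hh : ∀ s ∈ A, h s = 0) (s : List ℕ) :
    |gam f h s| ≤ |h s| := by
  cases s with
  | nil =>
    simp only [gam, incr_nil, prof]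
    by_cases hlt : psum f [] < 0
    · rw [if_pos hlt]
      simpa using abs_max_sub_max_le_abs (h []) 0 0
    · rw [if_neg hlt]
      simpa using abs_inf_sub_inf_le_abs (h []) 0 0
  | cons j s =>
    by_cases hs : (j :: s) ∈ A
    · have h1 := psum_eq_zero_of_mem hA hh _ hs
      have h2 := psum_eq_zero_of_mem hA hh _ (hA j s hs)
      simp only [gam, incr_cons, prof, h1, h2]
      simp
    · have e : psum f (j :: s) = psum f s := by simp [hf _ hs]
      have e2 : psum h (j :: s) - psum h s = h (j :: s) := by simp
      simp only [gam, incr_cons, prof, e]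
      split_ifs
      · rw [← e2]; exact abs_max_sub_max_le_abs _ _ _
      · rw [← e2]; exact abs_inf_sub_inf_le_abs _ _ _

theorem gam_sub_gam_neg (f h : List ℕ → ℝ) (s : List ℕ) :
    gam f h s - gam f (fun t => - h t) s = h s := by
  have key : ∀ t, prof (psum f) (psum h) t - prof (psum f) (psum (fun t => - h t)) t
      = psum h t := by
    intro t
    simp only [prof, psum_neg]
    split_ifs
    · rcases le_total (psum h t) 0 with h0 | h0
      · rw [max_eq_right h0, max_eq_left (by linarith)]; ring
      · rw [max_eq_left h0, max_eq_right (by linarith)]; ring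
    · rcases le_total (psum h t) 0 with h0 | h0
      · rw [min_eq_left h0, min_eq_right (by linarith)]; ring
      · rw [min_eq_right h0, min_eq_left (by linarith)]; ring
  cases s with
  | nil =>
    simp only [gam, incr_nil]
    rw [key]; rfl
  | cons j s =>
    simp only [gam, incr_cons]
    have h1 := key (j :: s)
    have h2 := key s
    have h3 : psum h (j :: s) - psum h s = h (j :: s) := by simp
    linarith

theorem abs_comb_prof_le {F H : List ℕ → ℝ} {s : List ℕ} (hF : |F s| ≤ 1) (hH : |H s| ≤ 1)
    {a b : ℝ} (ha0 : 0 ≤ a) (ha1 : a ≤ 1) (hb0 : 0 ≤ b) (hb1 : b ≤ 1) :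
    |a * F s + b * prof F H s| ≤ 1 := by
  rw [abs_le] at hF hH ⊢
  obtain ⟨hF1, hF2⟩ := hF
  obtain ⟨hH1, hH2⟩ := hH
  simp only [prof]
  split_ifs with h
  · have h1 : 0 ≤ max (H s) 0 := le_max_right _ _
    have h2 : max (H s) 0 ≤ 1 := max_le hH2 zero_le_one
    constructor <;> nlinarith
  · push Not at h
    have h1 : min (H s) 0 ≤ 0 := min_le_right _ _
    have h2 : -1 ≤ min (H s) 0 := le_min hH1 (by norm_num)
    constructor <;> nlinarith

end Vale.Agent.P069
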