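import Vale.Agent.P069.Comb

namespace Vale.Agent.P069

open scoped ENNReal

/-- The Hilbert space `ℓ²` over the nodes of the tree. -/
abbrev Hil : Type := lp (fun _ : List ℕ => ℝ) 2

theorem hasSum_inner_mul (f g : Hil) : HasSum (fun s => f s * g s) (inner ℝ f g) := by
  have := lp.hasSum_inner (𝕜 := ℝ) f g
  simpa [mul_comm] using this

theorem inner_eq_zero_of_forall (f g : Hil) (h : ∀ s, f s * g s = 0) : inner ℝ f g = 0 := by
  have := hasSum_inner_mul f g
  simp only [h] at this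
  exact this.unique hasSum_zero

theorem inner_congr_left (f f' g : Hil) (h : ∀ s, f s * g s = f' s * g s) :
    inner ℝ f g = inner ℝ f' g := by
  have h1 := hasSum_inner_mul f g
  have h2 := hasSum_inner_mul f' g
  simp only [h] at h1
  exact h1.unique h2

/-- The element of `ℓ²` given by a function dominated by an element of `ℓ²`. -/
def dom (h : Hil) (p : List ℕ → ℝ) (hp : ∀ s, |p s| ≤ |h s|) : Hil :=
  ⟨p, (lp.memℓp h).mono' hp⟩

@[simp] theorem dom_apply (h : Hil) (p : List ℕ → ℝ) (hp : ∀ s, |p s| ≤ |h s|) (s : List ℕ) :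
    dom h p hp s = p s := rfl

theorem coe_dom (h : Hil) (p : List ℕ → ℝ) (hp : ∀ s, |p s| ≤ |h s|) :
    (⇑(dom h p hp) : List ℕ → ℝ) = p := rfl

theorem norm_dom_le (h : Hil) (p : List ℕ → ℝ) (hp : ∀ s, |p s| ≤ |h s|) :
    ‖dom h p hp‖ ≤ ‖h‖ :=
  lp.norm_mono (by simp) hp

theorem abs_apply_le_norm (f : Hil) (s : List ℕ) : |f s| ≤ ‖f‖ :=
  lp.norm_apply_le_norm (by simp) f s

theorem coe_comb (a b : ℝ) (f g : Hil) :
    (⇑(a • f + b • g) : List ℕ → ℝ) = fun t => a * f t + b * g t := by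
  ext t
  rw [lp.coeFn_add, lp.coeFn_smul, lp.coeFn_smul]
  rfl

theorem coe_neg' (f : Hil) : (⇑(-f) : List ℕ → ℝ) = fun t => - f t := by
  ext t
  simp

/-- The dual ball of the `n`-th norm: `ℓ²`-norm at most one and all branch sums down to level `n`
bounded by one. -/
def W (n : ℕ) : Set Hil := {f | ‖f‖ ≤ 1 ∧ ∀ s : List ℕ, s.length ≤ n → |psum f s| ≤ 1}

/-- The `n`-th norm on `ℓ²`. -/
noncomputable def nrm (n : ℕ) (x : Hil) : ℝ := sSup ((fun f : Hil => inner ℝ f x) '' W n)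

theorem mem_W_of_norm_le {n : ℕ} {f : Hil} (h : ((n : ℝ) + 1) * ‖f‖ ≤ 1) : f ∈ W n := by
  have h0 : 0 ≤ ‖f‖ := norm_nonneg f
  constructor
  · have : (0 : ℝ) ≤ n := Nat.cast_nonneg n
    nlinarith
  · intro s hs
    have h1 := abs_psum_le f ‖f‖ (abs_apply_le_norm f) s
    have h2 : (s.length : ℝ) ≤ n := by exact_mod_cast hs
    nlinarith

theorem zero_mem_W (n : ℕ) : (0 : Hil) ∈ W n := mem_W_of_norm_le (by simp)

theorem neg_mem_W {n : ℕ} {f : Hil} (hf : f ∈ W n) : -f ∈ W n := by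
  refine ⟨by rw [norm_neg]; exact hf.1, fun s hs => ?_⟩
  rw [coe_neg', psum_neg, abs_neg]
  exact hf.2 s hs

theorem inner_le_norm_of_mem_W {n : ℕ} {f : Hil} (hf : f ∈ W n) (x : Hil) : inner ℝ f x ≤ ‖x‖ := by
  have h1 := real_inner_le_norm f x
  have h2 := hf.1
  have h3 := norm_nonneg x
  nlinarith

theorem bddAbove_W (n : ℕ) (x : Hil) : BddAbove ((fun f : Hil => inner ℝ f x) '' W n) := by
  refine ⟨‖x‖, ?_⟩
  rintro _ ⟨f, hf, rfl⟩
  exact inner_le_norm_of_mem_W hf x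

theorem le_nrm {n : ℕ} {f : Hil} (hf : f ∈ W n) (x : Hil) : inner ℝ f x ≤ nrm n x :=
  le_csSup (bddAbove_W n x) ⟨f, hf, rfl⟩

theorem nrm_le {n : ℕ} {x : Hil} {r : ℝ} (h : ∀ f ∈ W n, inner ℝ f x ≤ r) : nrm n x ≤ r := by
  refine csSup_le ⟨_, 0, zero_mem_W n, rfl⟩ ?_
  rintro _ ⟨f, hf, rfl⟩
  exact h f hf

theorem nrm_nonneg (n : ℕ) (x : Hil) : 0 ≤ nrm n x := by
  have := le_nrm (zero_mem_W n) x
  simpa using this

theorem nrm_le_norm (n : ℕ) (x : Hil) : nrm n x ≤ ‖x‖ :=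
  nrm_le fun _ hf => inner_le_norm_of_mem_W hf x

theorem norm_le_nrm (n : ℕ) (x : Hil) : ‖x‖ ≤ ((n : ℝ) + 1) * nrm n x := by
  have hn : (0 : ℝ) < (n : ℝ) + 1 := by positivity
  rcases (norm_nonneg x).eq_or_lt with h0 | h0
  · rw [← h0]
    have := nrm_nonneg n x
    positivity
  · have hf : (((n : ℝ) + 1) * ‖x‖)⁻¹ • x ∈ W n := by
      apply mem_W_of_norm_le
      rw [norm_smul, Real.norm_eq_abs, abs_of_pos (by positivity)]
      apply le_of_eq
      field_simp
    have := le_nrm hf x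
    rw [real_inner_smul_left, real_inner_self_eq_norm_sq] at this
    have e : (((n : ℝ) + 1) * ‖x‖)⁻¹ * ‖x‖ ^ 2 = ‖x‖ / ((n : ℝ) + 1) := by
      field_simp
    rw [e, div_le_iff₀ hn] at this
    linarith

theorem nrm_zero (n : ℕ) : nrm n 0 = 0 := by
  apply le_antisymm
  · have := nrm_le_norm n 0
    simpa using this
  · exact nrm_nonneg n 0

theorem nrm_add_le (n : ℕ) (x y : Hil) : nrm n (x + y) ≤ nrm n x + nrm n y := by
  refine nrm_le fun f hf => ?_
  rw [inner_add_right]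
  exact add_le_add (le_nrm hf x) (le_nrm hf y)

theorem nrm_neg (n : ℕ) (x : Hil) : nrm n (-x) = nrm n x := by
  apply le_antisymm
  · refine nrm_le fun f hf => ?_
    have := le_nrm (neg_mem_W hf) x
    rw [inner_neg_left] at this
    rw [inner_neg_right]
    exact this
  · refine nrm_le fun f hf => ?_
    have := le_nrm (neg_mem_W hf) (-x)
    rw [inner_neg_left, inner_neg_right, neg_neg] at this
    exact this

theorem nrm_smul_le (n : ℕ) (a : ℝ) (x : Hil) : nrm n (a • x) ≤ |a| * nrm n x := by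
  refine nrm_le fun f hf => ?_
  rw [real_inner_smul_right]
  rcases le_total 0 a with h | h
  · rw [abs_of_nonneg h]
    exact mul_le_mul_of_nonneg_left (le_nrm hf x) h
  · rw [abs_of_nonpos h]
    have := le_nrm (neg_mem_W hf) x
    rw [inner_neg_left] at this
    nlinarith

theorem eq_zero_of_nrm_eq_zero (n : ℕ) (x : Hil) (h : nrm n x = 0) : x = 0 := by
  have := norm_le_nrm n x
  rw [h, mul_zero] at this
  exact norm_le_zero_iff.1 this

end Vale.Agent.P069
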