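import Vale.Agent.P069.Refl

namespace Vale.Agent.P069

open Filter Topology NormedSpace
open scoped ENNReal

section lp2

variable {ι : Type*} {E : ι → Type*} [∀ i, NormedAddCommGroup (E i)]

theorem two_toReal_pos : 0 < (2 : ℝ≥0∞).toReal := by simp

theorem memℓp_two_of_sum_sq_le {f : ∀ i, E i} {C : ℝ}
    (h : ∀ S : Finset ι, ∑ i ∈ S, ‖f i‖ ^ 2 ≤ C) : Memℓp f 2 := by
  refine memℓp_gen' (C := C) fun S => ?_
  simpa using h S

theorem hasSum_norm_sq (x : lp E 2) : HasSum (fun i => ‖x i‖ ^ 2) (‖x‖ ^ 2) := by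
  simpa using lp.hasSum_norm two_toReal_pos x

theorem norm_sq_sum_single [DecidableEq ι] (f : ∀ i, E i) (S : Finset ι) :
    ‖∑ i ∈ S, lp.single 2 i (f i)‖ ^ 2 = ∑ i ∈ S, ‖f i‖ ^ 2 := by
  simpa using lp.norm_sum_single two_toReal_pos f S

end lp2

end Vale.Agent.P069

namespace Vale.Agent.P069

open Filter Topology NormedSpace
open scoped ENNReal

section refl

variable {ι : Type*} [DecidableEq ι] {E : ι → Type*} [∀ i, NormedAddCommGroup (E i)]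
  [∀ i, NormedSpace ℝ (E i)]

theorem norm_sum_single_le (z : lp E 2) (S : Finset ι) :
    ‖∑ i ∈ S, lp.single 2 i (z i)‖ ≤ ‖z‖ := by
  have h1 : ‖∑ i ∈ S, lp.single 2 i (z i)‖ ^ 2 ≤ ‖z‖ ^ 2 := by
    rw [norm_sq_sum_single]
    exact sum_le_hasSum S (fun i _ => by positivity) (hasSum_norm_sq z)
  exact (pow_le_pow_iff_left₀ (norm_nonneg _) (norm_nonneg _) two_ne_zero).1 h1

/-- The coordinate functionals of a functional on an `ℓ²`-sum of reflexive spaces are square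
summable. -/
theorem memℓp_dual_coords (h : ∀ i, IsReflexive (E i)) (ψ : StrongDual ℝ (lp E 2)) :
    Memℓp (fun i => ψ.comp (lp.singleContinuousLinearMap ℝ E 2 i)) 2 := by
  choose u hu1 hu2 using fun i =>
    (h i).exists_norm_attained (ψ.comp (lp.singleContinuousLinearMap ℝ E 2 i))
  refine memℓp_two_of_sum_sq_le (C := ‖ψ‖ ^ 2) fun S => ?_
  obtain ⟨a, ha⟩ : ∃ a : ι → ℝ, a = fun i => ‖ψ.comp (lp.singleContinuousLinearMap ℝ E 2 i)‖ :=
    ⟨_, rfl⟩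
  have ha' : ∀ i, ‖ψ.comp (lp.singleContinuousLinearMap ℝ E 2 i)‖ = a i := fun i => by rw [ha]
  have ha0 : ∀ i, 0 ≤ a i := fun i => by rw [← ha']; exact norm_nonneg _
  simp only [ha'] at hu2 ⊢
  obtain ⟨z, hz⟩ : ∃ z : lp E 2, z = ∑ i ∈ S, lp.single 2 i (a i • u i) := ⟨_, rfl⟩
  have hz1 : ‖z‖ ^ 2 ≤ ∑ i ∈ S, a i ^ 2 := by
    rw [hz, norm_sq_sum_single]
    refine Finset.sum_le_sum fun i _ => ?_
    rw [norm_smul, mul_pow, Real.norm_eq_abs, sq_abs]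
    have : ‖u i‖ ^ 2 ≤ 1 := pow_le_one₀ (norm_nonneg _) (hu1 i)
    nlinarith [sq_nonneg (a i)]
  have hz2 : ψ z = ∑ i ∈ S, a i ^ 2 := by
    rw [hz, map_sum]
    refine Finset.sum_congr rfl fun i _ => ?_
    have := hu2 i
    simp only [ContinuousLinearMap.comp_apply, lp.singleContinuousLinearMap_apply] at this
    rw [lp.single_smul, map_smul, this, smul_eq_mul, sq]
  obtain ⟨σ, hσ⟩ : ∃ σ : ℝ, σ = ∑ i ∈ S, a i ^ 2 := ⟨_, rfl⟩
  rw [← hσ] at hz1 hz2 ⊢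
  have hσ0 : 0 ≤ σ := by rw [hσ]; positivity
  have h3 : σ ≤ ‖ψ‖ * ‖z‖ := by
    rw [← hz2]
    exact le_trans (le_abs_self _) (ψ.le_opNorm z)
  have h4 : σ ^ 2 ≤ ‖ψ‖ ^ 2 * σ := by
    calc σ ^ 2 ≤ (‖ψ‖ * ‖z‖) ^ 2 := by gcongr
      _ = ‖ψ‖ ^ 2 * ‖z‖ ^ 2 := by ring
      _ ≤ ‖ψ‖ ^ 2 * σ := by gcongr
  rcases hσ0.eq_or_lt with h0 | h0
  · rw [← h0]; positivity
  · nlinarith

/-- The natural pairing between the `ℓ²`-sum of the duals and the `ℓ²`-sum. -/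
noncomputable def pairing (E : ι → Type*) [∀ i, NormedAddCommGroup (E i)]
    [∀ i, NormedSpace ℝ (E i)] :
    lp (fun i => StrongDual ℝ (E i)) 2 →L[ℝ] StrongDual ℝ (lp E 2) :=
  lp.dualPairing 2 2 (fun i => ContinuousLinearMap.id ℝ (StrongDual ℝ (E i))) (K := 1)
    (fun _ => ContinuousLinearMap.norm_id_le)

theorem pairing_apply (Ψ : lp (fun i => StrongDual ℝ (E i)) 2) (z : lp E 2) :
    pairing E Ψ z = ∑' i, Ψ i (z i) := rfl

theorem pairing_single (i : ι) (φ : StrongDual ℝ (E i)) :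
    pairing E (lp.single 2 i φ) = φ.comp (lp.evalCLM ℝ E 2 i) := by
  ext z
  rw [pairing_apply, tsum_eq_single i]
  · simp only [lp.single_apply, Pi.single_eq_same, ContinuousLinearMap.comp_apply]
    rfl
  · intro j hj
    simp [lp.single_apply, Pi.single_eq_of_ne hj]

theorem pairing_coords (ψ : StrongDual ℝ (lp E 2))
    (hψ : Memℓp (fun i => ψ.comp (lp.singleContinuousLinearMap ℝ E 2 i)) 2) :
    pairing E ⟨fun i => ψ.comp (lp.singleContinuousLinearMap ℝ E 2 i), hψ⟩ = ψ := by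
  refine lp.ext_continuousLinearMap (by simp) fun i => ?_
  ext v
  simp only [ContinuousLinearMap.comp_apply, lp.singleContinuousLinearMap_apply]
  rw [pairing_apply, tsum_eq_single i]
  · simp
  · intro j hj
    simp [lp.single_apply, Pi.single_eq_of_ne hj]

/-- An `ℓ²`-sum of reflexive spaces is reflexive. -/
theorem isReflexive_lp_two (h : ∀ i, IsReflexive (E i)) : IsReflexive (lp E 2) := by
  rw [isReflexive_iff]
  intro Φ
  have h' : ∀ i, ∃ x : E i, ∀ φ : StrongDual ℝ (E i),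
      Φ (φ.comp (lp.evalCLM ℝ E 2 i)) = φ x := by
    intro i
    obtain ⟨x, hx⟩ := isReflexive_iff.1 (h i)
      (Φ.comp ((ContinuousLinearMap.compL ℝ (lp E 2) (E i) ℝ).flip (lp.evalCLM ℝ E 2 i)))
    exact ⟨x, fun φ => by rw [← hx]; rfl⟩
  choose x hx using h'
  have hbound : ∀ S : Finset ι, ‖∑ i ∈ S, lp.single 2 i (x i)‖ ≤ ‖Φ‖ := by
    intro S
    obtain ⟨ψ, hψ1, hψ2⟩ := exists_dual_vector'' ℝ (∑ i ∈ S, lp.single 2 i (x i))
    have e1 : ψ (∑ i ∈ S, lp.single 2 i (x i)) =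
        Φ (∑ i ∈ S, (ψ.comp (lp.singleContinuousLinearMap ℝ E 2 i)).comp
          (lp.evalCLM ℝ E 2 i)) := by
      rw [map_sum, map_sum]
      refine Finset.sum_congr rfl fun i _ => ?_
      rw [hx]
      rfl
    have e2 : ‖∑ i ∈ S, (ψ.comp (lp.singleContinuousLinearMap ℝ E 2 i)).comp
          (lp.evalCLM ℝ E 2 i)‖ ≤ 1 := by
      refine ContinuousLinearMap.opNorm_le_bound _ zero_le_one fun z => ?_
      have e3 : (∑ i ∈ S, (ψ.comp (lp.singleContinuousLinearMap ℝ E 2 i)).comp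
          (lp.evalCLM ℝ E 2 i)) z = ψ (∑ i ∈ S, lp.single 2 i (z i)) := by
        rw [map_sum, ContinuousLinearMap.sum_apply]
        rfl
      rw [e3, one_mul]
      calc ‖ψ (∑ i ∈ S, lp.single 2 i (z i))‖ ≤ ‖ψ‖ * ‖∑ i ∈ S, lp.single 2 i (z i)‖ :=
            ψ.le_opNorm _
        _ ≤ 1 * ‖z‖ := by
            gcongr
            exact norm_sum_single_le z S
        _ = ‖z‖ := one_mul _
    have e4 : (‖∑ i ∈ S, lp.single 2 i (x i)‖ : ℝ) = ψ (∑ i ∈ S, lp.single 2 i (x i)) := by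
      rw [hψ2]; rfl
    rw [e4, e1]
    calc _ ≤ ‖Φ (∑ i ∈ S, (ψ.comp (lp.singleContinuousLinearMap ℝ E 2 i)).comp
          (lp.evalCLM ℝ E 2 i))‖ := le_abs_self _
      _ ≤ ‖Φ‖ * ‖∑ i ∈ S, (ψ.comp (lp.singleContinuousLinearMap ℝ E 2 i)).comp
          (lp.evalCLM ℝ E 2 i)‖ := Φ.le_opNorm _
      _ ≤ ‖Φ‖ * 1 := by gcongr
      _ = ‖Φ‖ := mul_one _
  have hmem : Memℓp x 2 := by
    refine memℓp_two_of_sum_sq_le (C := ‖Φ‖ ^ 2) fun S => ?_
    rw [← norm_sq_sum_single]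
    have := hbound S
    gcongr
  refine ⟨⟨x, hmem⟩, fun ψ => ?_⟩
  have hψ := memℓp_dual_coords h ψ
  obtain ⟨Ψ, hΨ⟩ : ∃ Ψ : lp (fun i => StrongDual ℝ (E i)) 2,
      Ψ = ⟨fun i => ψ.comp (lp.singleContinuousLinearMap ℝ E 2 i), hψ⟩ := ⟨_, rfl⟩
  have hD : pairing E Ψ = ψ := by rw [hΨ]; exact pairing_coords ψ hψ
  have hs := (Φ.comp (pairing E)).hasSum (lp.hasSum_single (by simp) Ψ)
  have hs' : HasSum (fun i => Ψ i (x i)) (Φ ψ) := by
    have e : (fun i => (Φ.comp (pairing E)) (lp.single 2 i (Ψ i))) = fun i => Ψ i (x i) := by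
      funext i
      rw [ContinuousLinearMap.comp_apply, pairing_single, hx]
    rw [e, ContinuousLinearMap.comp_apply, hD] at hs
    exact hs
  rw [← hs'.tsum_eq, ← hD]
  rfl

end refl

end Vale.Agent.P069
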