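import Vale.Agent.P069.Hil

namespace Vale.Agent.P069

open scoped ENNReal

theorem abs_indicator_le (A : Set (List ℕ)) (f : Hil) (s : List ℕ) :
    |A.indicator f s| ≤ |f s| := by
  by_cases hs : s ∈ A
  · rw [Set.indicator_of_mem hs]
  · rw [Set.indicator_of_notMem hs]; simp

/-- Restriction of an element of `ℓ²` to a set of nodes. -/
noncomputable def restr (A : Set (List ℕ)) (f : Hil) : Hil :=
  dom f (A.indicator f) (abs_indicator_le A f)

theorem restr_apply_of_mem {A : Set (List ℕ)} (f : Hil) {s : List ℕ} (hs : s ∈ A) :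
    restr A f s = f s := by
  simp [restr, Set.indicator_of_mem hs]

theorem restr_apply_of_notMem {A : Set (List ℕ)} (f : Hil) {s : List ℕ} (hs : s ∉ A) :
    restr A f s = 0 := by
  simp [restr, Set.indicator_of_notMem hs]

theorem restr_mem_W {n : ℕ} {A : Set (List ℕ)} (hA : DC A) {f : Hil} (hf : f ∈ W n) :
    restr A f ∈ W n := by
  refine ⟨le_trans (norm_dom_le _ _ _) hf.1, fun s hs => ?_⟩
  rw [restr, coe_dom]
  rcases psum_indicator hA f s with h0 | ⟨s', hs', h1⟩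
  · rw [h0]; simp
  · rw [h1]; exact hf.2 s' (le_trans hs' hs)

theorem abs_half_le (A : Set (List ℕ)) (g : Hil) (s : List ℕ) :
    |(1 / 2 : ℝ) * g s + (-1 / 2 : ℝ) * A.indicator g s| ≤ |g s| := by
  by_cases hs : s ∈ A
  · rw [Set.indicator_of_mem hs]
    have : (1 / 2 : ℝ) * g s + (-1 / 2 : ℝ) * g s = 0 := by ring
    rw [this]; simp
  · rw [Set.indicator_of_notMem hs, mul_zero, add_zero, abs_mul]
    have : |(1 / 2 : ℝ)| = 1 / 2 := abs_of_pos (by norm_num)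
    rw [this]
    have := abs_nonneg (g s)
    linarith

/-- Half of the part of `g` living off `A`. -/
noncomputable def half (A : Set (List ℕ)) (g : Hil) : Hil :=
  dom g (fun s => (1 / 2 : ℝ) * g s + (-1 / 2 : ℝ) * A.indicator g s) (abs_half_le A g)

theorem half_apply_of_mem {A : Set (List ℕ)} (g : Hil) {s : List ℕ} (hs : s ∈ A) :
    half A g s = 0 := by
  simp only [half, dom_apply, Set.indicator_of_mem hs]
  ring

theorem half_apply_of_notMem {A : Set (List ℕ)} (g : Hil) {s : List ℕ} (hs : s ∉ A) :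
    half A g s = (1 / 2 : ℝ) * g s := by
  simp only [half, dom_apply, Set.indicator_of_notMem hs]
  ring

theorem abs_psum_half_le {n : ℕ} {A : Set (List ℕ)} (hA : DC A) {g : Hil} (hg : g ∈ W n)
    (s : List ℕ) (hs : s.length ≤ n) : |psum (half A g) s| ≤ 1 := by
  rw [half, coe_dom, psum_lin]
  have h1 := hg.2 s hs
  have h2 := (restr_mem_W hA hg).2 s hs
  rw [restr, coe_dom] at h2
  rw [abs_le] at h1 h2 ⊢
  constructor <;> linarith [h1.1, h1.2, h2.1, h2.2]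

theorem one_sided {n : ℕ} {A : Set (List ℕ)} (hA : DC A) {f h x y : Hil} (hfW : f ∈ W n)
    (hf : ∀ s, s ∉ A → f s = 0) (hh : ∀ s ∈ A, h s = 0) (hh1 : ‖h‖ ≤ 1)
    (hh2 : ∀ s : List ℕ, s.length ≤ n → |psum h s| ≤ 1)
    (hx : ∀ s, s ∉ A → x s = 0) (hy : ∀ s ∈ A, y s = 0)
    {a b : ℝ} (ha0 : 0 ≤ a) (hb0 : 0 ≤ b) (hab : a ^ 2 + b ^ 2 ≤ 1) :
    a * inner ℝ f x + b * inner ℝ (dom h (gam f h) (abs_gam_le hA hf hh)) y ≤ nrm n (x + y) := by
  obtain ⟨γ, hγ⟩ : ∃ γ : Hil, γ = dom h (gam f h) (abs_gam_le hA hf hh) := ⟨_, rfl⟩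
  rw [← hγ]
  have ha1 : a ≤ 1 := by nlinarith
  have hb1 : b ≤ 1 := by nlinarith
  have hγA : ∀ s ∈ A, γ s = 0 := by
    intro s hs
    have := abs_gam_le hA hf hh s
    rw [hh s hs, abs_zero] at this
    rw [hγ, dom_apply]
    exact abs_nonpos_iff.1 this
  have horth : inner ℝ f γ = 0 := inner_eq_zero_of_forall _ _ (fun s => by
    by_cases hs : s ∈ A
    · simp [hγA s hs]
    · simp [hf s hs])
  have hmem : a • f + b • γ ∈ W n := by
    constructor
    · have h1 : ‖a • f + b • γ‖ ^ 2 = a ^ 2 * ‖f‖ ^ 2 + b ^ 2 * ‖γ‖ ^ 2 := by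
        rw [norm_add_sq_real, norm_smul, norm_smul, real_inner_smul_left, real_inner_smul_right,
          horth, Real.norm_eq_abs, Real.norm_eq_abs, mul_pow, mul_pow, sq_abs, sq_abs]
        ring
      have h2 : ‖γ‖ ≤ 1 := by rw [hγ]; exact le_trans (norm_dom_le _ _ _) hh1
      have h4 : ‖f‖ ^ 2 ≤ 1 := pow_le_one₀ (norm_nonneg _) hfW.1
      have h5 : ‖γ‖ ^ 2 ≤ 1 := pow_le_one₀ (norm_nonneg _) h2
      have h3 : ‖a • f + b • γ‖ ^ 2 ≤ 1 := by
        rw [h1]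
        nlinarith [sq_nonneg a, sq_nonneg b]
      exact (sq_le_one_iff₀ (norm_nonneg _)).1 h3
    · intro s hs
      rw [coe_comb, psum_lin, hγ, coe_dom, psum_gam]
      exact abs_comb_prof_le (hfW.2 s hs) (hh2 s hs) ha0 ha1 hb0 hb1
  have key := le_nrm hmem (x + y)
  rw [inner_add_left, real_inner_smul_left, real_inner_smul_left, inner_add_right,
    inner_add_right] at key
  have e1 : inner ℝ f y = 0 := inner_eq_zero_of_forall _ _ (fun s => by
    by_cases hs : s ∈ A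
    · simp [hy s hs]
    · simp [hf s hs])
  have e2 : inner ℝ γ x = 0 := inner_eq_zero_of_forall _ _ (fun s => by
    by_cases hs : s ∈ A
    · simp [hγA s hs]
    · simp [hx s hs])
  rw [e1, e2] at key
  linarith

theorem circle {u w r : ℝ} (hu : 0 ≤ u)
    (h : ∀ a b : ℝ, 0 ≤ a → 0 ≤ b → a ^ 2 + b ^ 2 ≤ 1 → a * u + b * w ≤ r) :
    u ^ 2 + (max w 0) ^ 2 ≤ r ^ 2 := by
  rcases le_total w 0 with hw | hw
  · rw [max_eq_right hw]
    have := h 1 0 zero_le_one le_rfl (by norm_num)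
    have h1 : u ≤ r := by linarith
    have := pow_le_pow_left₀ hu h1 2
    linarith
  · rw [max_eq_left hw]
    obtain ⟨ρ, hρ⟩ : ∃ ρ : ℝ, ρ = Real.sqrt (u ^ 2 + w ^ 2) := ⟨_, rfl⟩
    have hρ2 : ρ ^ 2 = u ^ 2 + w ^ 2 := by rw [hρ]; exact Real.sq_sqrt (by positivity)
    have hρ0 : 0 ≤ ρ := by rw [hρ]; exact Real.sqrt_nonneg _
    rcases hρ0.eq_or_lt with h0 | h0
    · rw [← hρ2, ← h0]
      have := sq_nonneg r
      simpa using this
    · have h1 := h (u / ρ) (w / ρ) (by positivity) (by positivity) (by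
        rw [div_pow, div_pow, ← add_div, ← hρ2]
        exact le_of_eq (div_self (by positivity)))
      have h2 : u / ρ * u + w / ρ * w = ρ := by
        have : u / ρ * u + w / ρ * w = (u ^ 2 + w ^ 2) / ρ := by ring
        rw [this, ← hρ2]
        field_simp
      rw [h2] at h1
      rw [← hρ2]
      exact pow_le_pow_left₀ hρ0 h1 2

theorem mid_aux {n : ℕ} {A : Set (List ℕ)} (hA : DC A) {x y : Hil}
    (hx : ∀ s, s ∉ A → x s = 0) (hy : ∀ s ∈ A, y s = 0) {f g : Hil} (hf : f ∈ W n)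
    (hg : g ∈ W n) (hu : 0 ≤ inner ℝ f x) (hv : 0 ≤ inner ℝ g y) :
    2 * (inner ℝ f x) ^ 2 + (inner ℝ g y) ^ 2 / 8 ≤ nrm n (x + y) ^ 2 + nrm n (x - y) ^ 2 := by
  obtain ⟨fA, hfA⟩ : ∃ fA : Hil, fA = restr A f := ⟨_, rfl⟩
  obtain ⟨h, hh⟩ : ∃ h : Hil, h = half A g := ⟨_, rfl⟩
  have hfAW : fA ∈ W n := by rw [hfA]; exact restr_mem_W hA hf
  have hfA0 : ∀ s, s ∉ A → fA s = 0 := fun s hs => by rw [hfA]; exact restr_apply_of_notMem f hs
  have hh0 : ∀ s ∈ A, h s = 0 := fun s hs => by rw [hh]; exact half_apply_of_mem g hs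
  have hh1 : ‖h‖ ≤ 1 := by rw [hh]; exact le_trans (norm_dom_le _ _ _) hg.1
  have hh2 : ∀ s : List ℕ, s.length ≤ n → |psum h s| ≤ 1 := fun s hs => by
    rw [hh]; exact abs_psum_half_le hA hg s hs
  obtain ⟨k, hk⟩ : ∃ k : Hil, k = -h := ⟨_, rfl⟩
  obtain ⟨z, hz⟩ : ∃ z : Hil, z = -y := ⟨_, rfl⟩
  have hkc : (⇑k : List ℕ → ℝ) = fun t => - h t := by rw [hk]; exact coe_neg' h
  have hzc : (⇑z : List ℕ → ℝ) = fun t => - y t := by rw [hz]; exact coe_neg' y
  have hn0 : ∀ s ∈ A, k s = 0 := fun s hs => by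
    rw [hkc]
    simp only [hh0 s hs, neg_zero]
  have hn1 : ‖k‖ ≤ 1 := by rw [hk, norm_neg]; exact hh1
  have hn2 : ∀ s : List ℕ, s.length ≤ n → |psum k s| ≤ 1 := fun s hs => by
    rw [hkc, psum_neg, abs_neg]; exact hh2 s hs
  have hny : ∀ s ∈ A, z s = 0 := fun s hs => by
    rw [hzc]
    simp only [hy s hs, neg_zero]
  have eu : inner ℝ fA x = inner ℝ f x := inner_congr_left _ _ _ (fun s => by
    by_cases hs : s ∈ A
    · rw [hfA, restr_apply_of_mem f hs]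
    · rw [hx s hs, mul_zero, mul_zero])
  have ev : inner ℝ h y = inner ℝ g y / 2 := by
    have : inner ℝ h y = inner ℝ ((1 / 2 : ℝ) • g) y := inner_congr_left _ _ _ (fun s => by
      by_cases hs : s ∈ A
      · rw [hy s hs, mul_zero, mul_zero]
      · rw [hh, half_apply_of_notMem g hs, lp.coeFn_smul]
        rfl)
    rw [this, real_inner_smul_left]
    ring
  obtain ⟨w1, hw1⟩ : ∃ w1 : ℝ, w1 = inner ℝ (dom h (gam fA h) (abs_gam_le hA hfA0 hh0)) y :=
    ⟨_, rfl⟩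
  obtain ⟨w2, hw2⟩ : ∃ w2 : ℝ,
      w2 = inner ℝ (dom k (gam fA k) (abs_gam_le hA hfA0 hn0)) z := ⟨_, rfl⟩
  have hsum : w1 + w2 = inner ℝ g y / 2 := by
    rw [← ev, hw1, hw2, hz, inner_neg_right, ← sub_eq_add_neg, ← inner_sub_left]
    congr 1
    ext s
    rw [lp.coeFn_sub]
    have := gam_sub_gam_neg fA h s
    rw [← hkc] at this
    exact this
  have c1 := circle (u := inner ℝ f x) (w := w1) (r := nrm n (x + y)) hu (fun a b ha hb hab => by
    have := one_sided hA hfAW hfA0 hh0 hh1 hh2 hx hy ha hb hab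
    rw [eu, ← hw1] at this
    exact this)
  have c2 := circle (u := inner ℝ f x) (w := w2) (r := nrm n (x - y)) hu (fun a b ha hb hab => by
    have := one_sided hA hfAW hfA0 hn0 hn1 hn2 hx hny ha hb hab
    rw [eu, ← hw2, hz, ← sub_eq_add_neg] at this
    exact this)
  obtain ⟨v, hvdef⟩ : ∃ v : ℝ, v = inner ℝ g y := ⟨_, rfl⟩
  rw [← hvdef] at hsum hv ⊢
  have p1 : w1 ≤ max w1 0 := le_max_left _ _
  have p2 : w2 ≤ max w2 0 := le_max_left _ _
  have p3 : 0 ≤ max w1 0 := le_max_right _ _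
  have p4 : 0 ≤ max w2 0 := le_max_right _ _
  have p5 : v / 2 ≤ max w1 0 + max w2 0 := by linarith
  have p6 : (v / 2) ^ 2 ≤ (max w1 0 + max w2 0) ^ 2 := pow_le_pow_left₀ (by linarith) p5 2
  nlinarith [sq_nonneg (max w1 0 - max w2 0)]

theorem sq_nrm_le {n : ℕ} {x : Hil} {c : ℝ} (hc : 0 ≤ c)
    (h : ∀ f ∈ W n, 0 ≤ inner ℝ f x → (inner ℝ f x) ^ 2 ≤ c) : nrm n x ^ 2 ≤ c := by
  have h1 : nrm n x ≤ Real.sqrt c := by
    refine nrm_le fun f hf => ?_
    rcases le_total 0 (inner ℝ f x) with h0 | h0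
    · exact Real.le_sqrt_of_sq_le (h f hf h0)
    · exact le_trans h0 (Real.sqrt_nonneg _)
  have := pow_le_pow_left₀ (nrm_nonneg n x) h1 2
  rwa [Real.sq_sqrt hc] at this

/-- The key midpoint inequality: `x` lives on a downward closed set `A` of nodes, `y` off `A`. -/
theorem mid_ineq (n : ℕ) {A : Set (List ℕ)} (hA : DC A) {x y : Hil}
    (hx : ∀ s, s ∉ A → x s = 0) (hy : ∀ s ∈ A, y s = 0) :
    2 * nrm n x ^ 2 + nrm n y ^ 2 / 8 ≤ nrm n (x + y) ^ 2 + nrm n (x - y) ^ 2 := by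
  obtain ⟨R, hR⟩ : ∃ R : ℝ, R = nrm n (x + y) ^ 2 + nrm n (x - y) ^ 2 := ⟨_, rfl⟩
  rw [← hR]
  have hR0 : 0 ≤ R := by rw [hR]; positivity
  have aux : ∀ f ∈ W n, ∀ g ∈ W n, 0 ≤ inner ℝ f x → 0 ≤ inner ℝ g y →
      2 * (inner ℝ f x) ^ 2 + (inner ℝ g y) ^ 2 / 8 ≤ R := by
    intro f hf g hg hu hv
    rw [hR]
    exact mid_aux hA hx hy hf hg hu hv
  have step1 : ∀ g ∈ W n, 0 ≤ inner ℝ g y → 2 * nrm n x ^ 2 + (inner ℝ g y) ^ 2 / 8 ≤ R := by
    intro g hg hv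
    have h0 := aux 0 (zero_mem_W n) g hg (by simp) hv
    simp only [inner_zero_left] at h0
    have := sq_nrm_le (n := n) (x := x) (c := (R - (inner ℝ g y) ^ 2 / 8) / 2) (by linarith)
      (fun f hf hu => by
        have := aux f hf g hg hu hv
        linarith)
    linarith
  have h0 := step1 0 (zero_mem_W n) (by simp)
  simp only [inner_zero_left] at h0
  have := sq_nrm_le (n := n) (x := y) (c := (R - 2 * nrm n x ^ 2) * 8) (by linarith)
    (fun g hg hv => by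
      have := step1 g hg hv
      linarith)
  linarith

end Vale.Agent.P069
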