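import Vale.Agent.P069.Cof
import Vale.Agent.P069.Quant
import Vale.Agent.P069.LpTwo

namespace Vale.Agent.P069

open Filter Topology
open scoped ENNReal

/-- An asymptotic midpoint inequality of power type two, up to small perturbations of `x`. -/
def MidProp (E : Type*) [NormedAddCommGroup E] [NormedSpace ℝ E] : Prop :=
  ∀ x : E, ∀ η : ℝ, 0 < η → ∃ x' : E, ‖x - x'‖ ≤ η ∧ ∃ F ∈ cof E, ∀ y ∈ F,
    2 * ‖x'‖ ^ 2 + ‖y‖ ^ 2 / 8 ≤ ‖x' + y‖ ^ 2 + ‖x' - y‖ ^ 2

theorem MidProp.isAMUC {X : Type*} [NormedAddCommGroup X] [NormedSpace ℝ X] (h : MidProp X) :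
    IsAMUC (normSeminorm ℝ X) := by
  apply isAMUC_of_forall
  intro t ht
  obtain ⟨c, hc⟩ : ∃ c : ℝ, c = min 1 (t ^ 2 / 288) := ⟨_, rfl⟩
  have hc0 : 0 < c := by rw [hc]; positivity
  have hc1 : c ≤ 1 := by rw [hc]; exact min_le_left _ _
  have hc2 : c ≤ t ^ 2 / 288 := by rw [hc]; exact min_le_right _ _
  refine ⟨c, hc0, fun x hx => ?_⟩
  obtain ⟨x', hx', F, hF, HF⟩ := h x c hc0
  refine ⟨F, hF, fun y hy hy1 => ?_⟩
  simp only [coe_normSeminorm] at hx hy1 ⊢
  have key := HF (t • y) (F.smul_mem t hy)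
  rw [norm_smul, hy1, mul_one, Real.norm_eq_abs, sq_abs] at key
  by_contra hcon
  push Not at hcon
  have h1 : ‖x + t • y‖ < 1 + c := lt_of_le_of_lt (le_max_left _ _) hcon
  have h2 : ‖x - t • y‖ < 1 + c := lt_of_le_of_lt (le_max_right _ _) hcon
  have h3 : ‖x' + t • y‖ ≤ ‖x + t • y‖ + c := by
    have e : x' + t • y = (x + t • y) - (x - x') := by abel
    rw [e]
    exact le_trans (norm_sub_le _ _) (by linarith)
  have h4 : ‖x' - t • y‖ ≤ ‖x - t • y‖ + c := by
    have e : x' - t • y = (x - t • y) - (x - x') := by abel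
    rw [e]
    exact le_trans (norm_sub_le _ _) (by linarith)
  have h5 : 1 - c ≤ ‖x'‖ := by
    have e : x = x' + (x - x') := by abel
    have := norm_add_le x' (x - x')
    rw [← e, hx] at this
    linarith
  have h6 : ‖x' + t • y‖ ^ 2 ≤ (1 + 2 * c) ^ 2 :=
    pow_le_pow_left₀ (norm_nonneg _) (by linarith) 2
  have h7 : ‖x' - t • y‖ ^ 2 ≤ (1 + 2 * c) ^ 2 :=
    pow_le_pow_left₀ (norm_nonneg _) (by linarith) 2
  have h8 : (1 - c) ^ 2 ≤ ‖x'‖ ^ 2 := pow_le_pow_left₀ (by linarith) h5 2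
  have h9 : t ^ 2 / 16 ≤ 6 * c + 3 * c ^ 2 := by nlinarith
  have h10 : 3 * c ^ 2 ≤ 3 * c := by nlinarith
  have h11 : 0 < t ^ 2 := by positivity
  linarith

section lp

variable {ι : Type*} [DecidableEq ι] {E : ι → Type*} [∀ i, NormedAddCommGroup (E i)]
  [∀ i, NormedSpace ℝ (E i)]

theorem sum_single_apply (f : ∀ i, E i) (S : Finset ι) (i : ι) :
    (∑ j ∈ S, lp.single 2 j (f j) : lp E 2) i = if i ∈ S then f i else 0 := by
  simp only [lp.coeFn_single, lp.coeFn_sum, Finset.sum_apply, Finset.sum_pi_single]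

theorem midProp_lp (h : ∀ i, MidProp (E i)) : MidProp (lp E 2) := by
  intro x η hη
  have hs := lp.hasSum_single (E := E) (p := 2) (by simp) x
  obtain ⟨S, hS⟩ : ∃ S : Finset ι, ‖x - ∑ i ∈ S, lp.single 2 i (x i)‖ ≤ η / 2 := by
    have := (hs.eventually (Metric.ball_mem_nhds x (half_pos hη))).exists
    obtain ⟨S, hS⟩ := this
    refine ⟨S, ?_⟩
    rw [dist_comm, dist_eq_norm] at hS
    exact hS.le
  obtain ⟨η', hη'⟩ : ∃ η' : ℝ, η' = η / (2 * (S.card + 1)) := ⟨_, rfl⟩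
  have hη'0 : 0 < η' := by rw [hη']; positivity
  choose x' hx' F hF HF using fun i => h i (x i) η' hη'0
  refine ⟨∑ i ∈ S, lp.single 2 i (x' i), ?_, ⨅ i ∈ S, (F i).comap (lp.evalCLM ℝ E 2 i :
    lp E 2 →ₗ[ℝ] E i), cof_biInf S _ (fun i _ => cof_comap _ (hF i)), ?_⟩
  · have e : x - ∑ i ∈ S, lp.single 2 i (x' i) =
        (x - ∑ i ∈ S, lp.single 2 i (x i)) + ∑ i ∈ S, lp.single 2 i (x i - x' i) := by
      simp only [lp.single_sub, Finset.sum_sub_distrib]
      abel
    rw [e]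
    have h1 : ‖∑ i ∈ S, lp.single 2 i (x i - x' i)‖ ≤ S.card * η' := by
      refine le_trans (norm_sum_le _ _) ?_
      have : ∀ i ∈ S, ‖lp.single 2 i (x i - x' i)‖ ≤ η' := fun i _ => by
        rw [lp.norm_single (by simp)]
        exact hx' i
      have := Finset.sum_le_sum this
      simpa using this
    have h2 : (S.card : ℝ) * η' ≤ η / 2 := by
      rw [hη']
      have : (0 : ℝ) ≤ S.card := Nat.cast_nonneg _
      rw [mul_div_assoc', div_le_div_iff₀ (by positivity) (by norm_num)]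
      nlinarith
    exact le_trans (norm_add_le _ _) (by linarith)
  · intro y hy
    have hy' : ∀ i ∈ S, y i ∈ F i := by
      intro i hi
      have := (Submodule.mem_iInf _).1 ((Submodule.mem_iInf _).1 hy i) hi
      exact this
    obtain ⟨X', hX'⟩ : ∃ X' : lp E 2, X' = ∑ i ∈ S, lp.single 2 i (x' i) := ⟨_, rfl⟩
    rw [← hX']
    have hX'i : ∀ i, X' i = if i ∈ S then x' i else 0 := fun i => by
      rw [hX']; exact sum_single_apply x' S i
    have s1 := ((hasSum_norm_sq X').mul_left 2).add ((hasSum_norm_sq y).div_const 8)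
    have s2 := (hasSum_norm_sq (X' + y)).add (hasSum_norm_sq (X' - y))
    refine hasSum_le (fun i => ?_) s1 s2
    rw [lp.coeFn_add, lp.coeFn_sub, Pi.add_apply, Pi.sub_apply, hX'i]
    by_cases hi : i ∈ S
    · rw [if_pos hi]
      exact HF i (y i) (hy' i hi)
    · rw [if_neg hi]
      simp only [norm_zero, zero_add, zero_sub, norm_neg]
      have := sq_nonneg ‖y i‖
      nlinarith

end lp

end Vale.Agent.P069
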