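import Vale.Agent.P069.Quant

namespace Vale.Agent.P069

variable {X : Type*} [NormedAddCommGroup X] [NormedSpace ℝ X]

theorem isAUC_of_forall (N : Seminorm ℝ X)
    (h : ∀ t : ℝ, 0 < t → ∃ c : ℝ, 0 < c ∧ ∀ x : X, N x = 1 → ∃ F ∈ cof X, ∀ y ∈ F, N y = 1 →
      1 + c ≤ N (x + t • y)) : IsAUC N := by
  intro t ht
  obtain ⟨c, hc, H⟩ := h t ht
  have key : ((c : ℝ) : EReal) ≤ aucModulus N t := by
    refine le_iInf₂ fun x hx => ?_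
    obtain ⟨F, hF, HF⟩ := H x hx
    refine le_iSup₂_of_le F hF (le_iInf₂ fun y hy => ?_)
    have := HF y hy.1 hy.2
    exact EReal.coe_le_coe_iff.2 (by linarith)
  exact lt_of_lt_of_le (EReal.coe_pos.2 hc) key

theorem IsAMUC.forall {N : Seminorm ℝ X} (h : IsAMUC N) (t : ℝ) (ht : 0 < t) :
    ∃ d : ℝ, 0 < d ∧ ∀ x : X, N x = 1 → ∃ F ∈ cof X, ∀ y ∈ F, N y = 1 →
      1 + d ≤ max (N (x + t • y)) (N (x - t • y)) := by
  have h0 := h t ht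
  obtain ⟨d, hd0, hd⟩ := EReal.lt_iff_exists_real_btwn.1 h0
  refine ⟨d, EReal.coe_pos.1 hd0, fun x hx => ?_⟩
  have h1 : ((d : ℝ) : EReal) < ⨆ F ∈ cof X, ⨅ y ∈ {y : X | y ∈ F ∧ N y = 1},
      ((max (N (x + t • y)) (N (x - t • y)) - 1 : ℝ) : EReal) :=
    lt_of_lt_of_le hd (iInf₂_le x hx)
  obtain ⟨F, hF⟩ := lt_iSup_iff.1 h1
  obtain ⟨hFc, hF⟩ := lt_iSup_iff.1 hF
  refine ⟨F, hFc, fun y hy hNy => ?_⟩
  have h2 : ((d : ℝ) : EReal) ≤ ((max (N (x + t • y)) (N (x - t • y)) - 1 : ℝ) : EReal) :=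
    le_trans hF.le (iInf₂_le y ⟨hy, hNy⟩)
  have := EReal.coe_le_coe_iff.1 h2
  linarith

end Vale.Agent.P069
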