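import Vale.Agent.P069.Defs

namespace Vale.Agent.P069

open Filter Topology NormedSpace
open scoped ENNReal

section basic

variable {X Y : Type*} [NormedAddCommGroup X] [NormedSpace ℝ X]
  [NormedAddCommGroup Y] [NormedSpace ℝ Y]

theorem isReflexive_iff : IsReflexive X ↔
    ∀ Φ : StrongDual ℝ (StrongDual ℝ X), ∃ x : X, ∀ φ : StrongDual ℝ X, Φ φ = φ x := by
  constructor
  · intro h Φ
    obtain ⟨x, hx⟩ := h Φ
    exact ⟨x, fun φ => by rw [← hx]; rfl⟩
  · intro h Φ
    obtain ⟨x, hx⟩ := h Φ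
    exact ⟨x, by ext φ; rw [hx]; rfl⟩

theorem isReflexive_of_equiv (e : X ≃L[ℝ] Y) (hY : IsReflexive Y) : IsReflexive X := by
  rw [isReflexive_iff] at hY ⊢
  intro Φ
  obtain ⟨y, hy⟩ := hY (Φ.comp ((ContinuousLinearMap.compL ℝ X Y ℝ).flip (e : X →L[ℝ] Y)))
  refine ⟨e.symm y, fun φ => ?_⟩
  have := hy (φ.comp (e.symm : Y →L[ℝ] X))
  simp only [ContinuousLinearMap.comp_apply, ContinuousLinearMap.flip_apply,
    ContinuousLinearMap.compL_apply, ContinuousLinearEquiv.coe_coe] at this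
  rw [← this]
  congr 1
  ext x
  simp

theorem isReflexive_hilbert (H : Type*) [NormedAddCommGroup H] [InnerProductSpace ℝ H]
    [CompleteSpace H] : IsReflexive H := by
  rw [isReflexive_iff]
  intro Φ
  let T : H →L[ℝ] StrongDual ℝ H := innerSL ℝ
  obtain ⟨z, hz⟩ : ∃ z : H, InnerProductSpace.toDual ℝ H z = Φ.comp T :=
    ⟨(InnerProductSpace.toDual ℝ H).symm (Φ.comp T), by simp⟩
  refine ⟨z, fun φ => ?_⟩
  obtain ⟨v, rfl⟩ : ∃ v : H, InnerProductSpace.toDual ℝ H v = φ :=
    ⟨(InnerProductSpace.toDual ℝ H).symm φ, by simp⟩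
  have h1 : Φ (T v) = inner ℝ z v := by
    have := congrArg (fun L => L v) hz
    simp only [InnerProductSpace.toDual_apply_apply, ContinuousLinearMap.comp_apply] at this
    exact this.symm
  have h2 : T v = InnerProductSpace.toDual ℝ H v := by
    ext w
    simp only [T, InnerProductSpace.toDual_apply_apply]
    exact innerSL_apply_apply ℝ v w
  rw [← h2, h1, h2, InnerProductSpace.toDual_apply_apply, real_inner_comm]

/-- In a reflexive space every functional attains its norm on the unit ball. -/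
theorem IsReflexive.exists_norm_attained (h : IsReflexive X) (φ : StrongDual ℝ X) :
    ∃ u : X, ‖u‖ ≤ 1 ∧ φ u = ‖φ‖ := by
  obtain ⟨Θ, hΘ1, hΘ2⟩ := exists_dual_vector'' ℝ φ
  obtain ⟨u, rfl⟩ := h Θ
  refine ⟨u, ?_, ?_⟩
  · have := (inclusionInDoubleDualLi (E := X) ℝ).norm_map u
    rw [← this]
    exact hΘ1
  · simpa using hΘ2

end basic

end Vale.Agent.P069
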