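import Vale.Agent.P069.Quant

namespace Vale.Agent.P069

open Filter Topology

variable {X : Type*} [NormedAddCommGroup X] [NormedSpace ℝ X]

/-- A weakly null sequence gets arbitrarily close to any closed finite-codimensional subspace. -/
theorem exists_near_of_weaklyNull {F : Submodule ℝ X} (hF : F ∈ cof X) (u : ℕ → X)
    (hu : ∀ φ : StrongDual ℝ X, Tendsto (fun j => φ (u j)) atTop (𝓝 0)) {η : ℝ} (hη : 0 < η) :
    ∃ j, ∃ v ∈ F, ‖u j - v‖ < η := by
  have : IsClosed (F : Set X) := hF.1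
  have : FiniteDimensional ℝ (X ⧸ F) := hF.2
  let b := Module.finBasis ℝ (X ⧸ F)
  have h1 : Tendsto (fun j => b.equivFunL (F.mkQL (u j))) atTop (𝓝 0) := by
    rw [tendsto_pi_nhds]
    intro i
    have := hu ((ContinuousLinearMap.proj (R := ℝ) (φ := fun _ => ℝ) i).comp
      ((b.equivFunL : (X ⧸ F) →L[ℝ] (Fin (Module.finrank ℝ (X ⧸ F)) → ℝ)).comp F.mkQL))
    simpa using this
  have h2 : Tendsto (fun j => F.mkQL (u j)) atTop (𝓝 0) := by
    have := (b.equivFunL.symm.continuous.tendsto 0).comp h1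
    simpa [Function.comp_def] using this
  have h3 : ∀ᶠ j in atTop, ‖F.mkQL (u j)‖ < η := by
    have := h2.norm
    simp only [norm_zero] at this
    exact this.eventually (gt_mem_nhds hη)
  obtain ⟨j, hj⟩ := h3.exists
  obtain ⟨m, hm1, hm2⟩ := Submodule.Quotient.norm_mk_lt (F.mkQL (u j)) (sub_pos.2 hj)
  refine ⟨j, u j - m, ?_, ?_⟩
  · have : (Submodule.Quotient.mk (u j - m) : X ⧸ F) = 0 := by
      rw [Submodule.Quotient.mk_sub, hm1]
      simp
    exact (Submodule.Quotient.mk_eq_zero F).1 this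
  · have : u j - (u j - m) = m := by abel
    rw [this]
    linarith

theorem auc_convex {N : Seminorm ℝ X} {x y : X} {t0 τ d : ℝ} (hx : N x = 1) (ht0 : 0 < t0)
    (hτ : t0 ≤ τ) (hd : 0 < d) (h0 : 1 + d ≤ N (x + t0 • y)) : 1 + d ≤ N (x + τ • y) := by
  have hτpos : 0 < τ := lt_of_lt_of_le ht0 hτ
  obtain ⟨l, hl⟩ : ∃ l, l = t0 / τ := ⟨_, rfl⟩
  have hl0 : 0 < l := by rw [hl]; positivity
  have hl1 : l ≤ 1 := by
    rw [hl, div_le_one hτpos]
    exact hτ
  have hconv : x + t0 • y = (1 - l) • x + l • (x + τ • y) := by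
    have : l * τ = t0 := by
      rw [hl]
      field_simp
    rw [smul_add, smul_smul, this, sub_smul, one_smul]
    abel
  have h1 : N (x + t0 • y) ≤ (1 - l) + l * N (x + τ • y) := by
    rw [hconv]
    refine le_trans (map_add_le_add N _ _) ?_
    rw [map_smul_eq_mul, map_smul_eq_mul, Real.norm_eq_abs, Real.norm_eq_abs,
      abs_of_nonneg (by linarith : 0 ≤ 1 - l), abs_of_pos hl0, hx, mul_one]
  have h3 : d + l ≤ l * N (x + τ • y) := by linarith
  by_contra hcon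
  push Not at hcon
  have : l * N (x + τ • y) < l * (1 + d) := mul_lt_mul_of_pos_left hcon hl0
  nlinarith

theorem auc_step {N : Seminorm ℝ X} {c C d : ℝ} (hc : 0 < c) (hC : 0 < C)
    (hN : ∀ x : X, c * ‖x‖ ≤ N x ∧ N x ≤ C * ‖x‖) (hd : 0 < d)
    (hauc : ∀ x : X, N x = 1 → ∃ F ∈ cof X, ∀ y ∈ F, N y = 1 → 1 + d ≤ N (x + (c / (2 * C)) • y))
    (z : X) (hz1 : c ≤ N z) (hz2 : ‖z‖ ≤ 1) (u : ℕ → X) (hu1 : ∀ j, 1 ≤ ‖u j‖)
    (hu : ∀ φ : StrongDual ℝ X, Tendsto (fun j => φ (u j)) atTop (𝓝 0)) :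
    ∃ j, N z + c * d / 2 ≤ N (z + u j) := by
  obtain ⟨r, hr⟩ : ∃ r, r = N z := ⟨_, rfl⟩
  rw [← hr] at hz1 ⊢
  have hr0 : 0 < r := lt_of_lt_of_le hc hz1
  have hrC : r ≤ C := by
    have := (hN z).2
    nlinarith
  have hx : N (r⁻¹ • z) = 1 := by
    rw [map_smul_eq_mul, Real.norm_eq_abs, abs_of_pos (inv_pos.2 hr0), ← hr]
    exact inv_mul_cancel₀ hr0.ne'
  obtain ⟨F, hF, HF⟩ := hauc _ hx
  have hη : 0 < min (c / (2 * C)) (c * d / (2 * C)) := by positivity
  obtain ⟨j, v, hv, hjv⟩ := exists_near_of_weaklyNull hF u hu hη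
  have hη1 : C * ‖u j - v‖ ≤ c / 2 := by
    have h1 : ‖u j - v‖ ≤ c / (2 * C) := le_trans hjv.le (min_le_left _ _)
    calc C * ‖u j - v‖ ≤ C * (c / (2 * C)) := by gcongr
      _ = c / 2 := by field_simp
  have hη2 : C * ‖u j - v‖ ≤ c * d / 2 := by
    have h1 : ‖u j - v‖ ≤ c * d / (2 * C) := le_trans hjv.le (min_le_right _ _)
    calc C * ‖u j - v‖ ≤ C * (c * d / (2 * C)) := by gcongr
      _ = c * d / 2 := by field_simp
  have hNuv : N (u j - v) ≤ C * ‖u j - v‖ := (hN _).2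
  have hNu : c ≤ N (u j) := by
    have := (hN (u j)).1
    have h1 := hu1 j
    nlinarith
  obtain ⟨ρ, hρ⟩ : ∃ ρ, ρ = N v := ⟨_, rfl⟩
  have hρ0 : c / 2 ≤ ρ := by
    have h1 : N (u j) ≤ N (u j - v) + N v := by
      have := map_add_le_add N (u j - v) v
      simpa using this
    linarith
  have hρpos : 0 < ρ := by linarith
  have hy : N (ρ⁻¹ • v) = 1 := by
    rw [map_smul_eq_mul, Real.norm_eq_abs, abs_of_pos (inv_pos.2 hρpos), ← hρ]
    exact inv_mul_cancel₀ hρpos.ne'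
  have hyF : ρ⁻¹ • v ∈ F := F.smul_mem _ hv
  have h0 := HF _ hyF hy
  have hτt : c / (2 * C) ≤ ρ / r := by
    rw [div_le_div_iff₀ (by positivity) hr0]
    nlinarith
  have h2 := auc_convex hx (by positivity) hτt hd h0
  have hzv : z + v = r • (r⁻¹ • z + (ρ / r) • ρ⁻¹ • v) := by
    rw [smul_add, smul_smul, smul_smul, smul_smul, mul_inv_cancel₀ hr0.ne', one_smul]
    have : r * (ρ / r) * ρ⁻¹ = 1 := by
      field_simp
    rw [this, one_smul]
  have h4 : r * (1 + d) ≤ N (z + v) := by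
    rw [hzv, map_smul_eq_mul, Real.norm_eq_abs, abs_of_pos hr0]
    gcongr
  have h5 : N (z + v) ≤ N (z + u j) + N (u j - v) := by
    have := map_add_le_add N (z + u j) (v - u j)
    have e1 : z + u j + (v - u j) = z + v := by abel
    have e2 : N (v - u j) = N (u j - v) := map_sub_rev N _ _
    rw [e1, e2] at this
    exact this
  refine ⟨j, ?_⟩
  nlinarith

/-- Abstract criterion: bounded weakly null trees of every finite height with separated nodes
prevent AUC renormings. -/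
theorem not_aucRenormable_of_trees
    (h : ∀ n : ℕ, ∃ b : List ℕ → X, (∀ s, s.length ≤ n → ‖b s‖ ≤ 1) ∧ 1 ≤ ‖b []‖ ∧
      (∀ s j, 1 ≤ ‖b (j :: s) - b s‖) ∧
      ∀ s (φ : StrongDual ℝ X), Tendsto (fun j => φ (b (j :: s) - b s)) atTop (𝓝 0)) :
    ¬ AUCRenormable X := by
  rintro ⟨N, ⟨c, C, hc, hC, hN⟩, hauc⟩
  obtain ⟨d, hd, Hd⟩ := hauc.forall (c / (2 * C)) (by positivity)
  have hγ : 0 < c * d / 2 := by positivity
  obtain ⟨n, hn⟩ := exists_nat_gt (C / (c * d / 2))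
  obtain ⟨b, hb1, hb0, hb2, hb3⟩ := h n
  have key : ∀ k : ℕ, k ≤ n → ∃ s : List ℕ, s.length = k ∧ c + k * (c * d / 2) ≤ N (b s) := by
    intro k
    induction k with
    | zero =>
      intro _
      refine ⟨[], rfl, ?_⟩
      have := (hN (b [])).1
      simp only [Nat.cast_zero, zero_mul, add_zero]
      nlinarith
    | succ k ih =>
      intro hk
      obtain ⟨s, hs, hNs⟩ := ih (by omega)
      have hz1 : c ≤ N (b s) := by
        have : 0 ≤ (k : ℝ) * (c * d / 2) := by positivity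
        linarith
      obtain ⟨j, hj⟩ := auc_step hc hC hN hd Hd (b s) hz1 (hb1 s (by omega))
        (fun j => b (j :: s) - b s) (hb2 s) (hb3 s)
      refine ⟨j :: s, by simp [hs], ?_⟩
      have e : b s + (b (j :: s) - b s) = b (j :: s) := by abel
      rw [e] at hj
      push_cast
      linarith
  obtain ⟨s, hs, hNs⟩ := key n le_rfl
  have h1 : N (b s) ≤ C := by
    have := (hN (b s)).2
    have h2 := hb1 s (by omega)
    nlinarith
  have h2 : C < n * (c * d / 2) := by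
    rwa [div_lt_iff₀ hγ] at hn
  linarith

end Vale.Agent.P069
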