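import Vale.Agent.P069.Mid
import Vale.Agent.P069.MidProp
import Vale.Agent.P069.Tree

namespace Vale.Agent.P069

open Filter Topology
open scoped ENNReal

/-- `ℓ²` over the tree, equipped with the `n`-th norm `nrm n`. -/
def En (_n : ℕ) : Type := Hil

noncomputable instance (n : ℕ) : AddCommGroup (En n) := inferInstanceAs (AddCommGroup Hil)

noncomputable instance (n : ℕ) : Module ℝ (En n) := inferInstanceAs (Module ℝ Hil)

/-- `nrm n` as a group norm. -/
noncomputable def enNorm (n : ℕ) : AddGroupNorm (En n) where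
  toFun := nrm n
  map_zero' := nrm_zero n
  add_le' := nrm_add_le n
  neg' := nrm_neg n
  eq_zero_of_map_eq_zero' := eq_zero_of_nrm_eq_zero n

noncomputable instance (n : ℕ) : NormedAddCommGroup (En n) := (enNorm n).toNormedAddCommGroup

noncomputable instance (n : ℕ) : NormedSpace ℝ (En n) := ⟨fun a x => nrm_smul_le n a x⟩

/-- The identity map from `En n` to `ℓ²`. -/
noncomputable def toHil (n : ℕ) : En n ≃ₗ[ℝ] Hil := LinearEquiv.refl ℝ Hil

theorem norm_En (n : ℕ) (x : En n) : ‖x‖ = nrm n (toHil n x) := rfl

/-- The identity map from `En n` to `ℓ²` as an isomorphism of normed spaces. -/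
noncomputable def toHilL (n : ℕ) : En n ≃L[ℝ] Hil :=
  (toHil n).toContinuousLinearEquivOfBounds ((n : ℝ) + 1) 1 (fun x => norm_le_nrm n x)
    (fun x => by rw [one_mul]; exact nrm_le_norm n x)

theorem toHilL_apply (n : ℕ) (x : En n) : toHilL n x = toHil n x := rfl

theorem toHilL_symm_apply (n : ℕ) (x : Hil) : (toHilL n).symm x = (toHil n).symm x := rfl

instance (n : ℕ) : CompleteSpace (En n) :=
  (completeSpace_congr (e := (toHilL n).toLinearEquiv.toEquiv) (toHilL n).isUniformEmbedding).2
    inferInstance

theorem isReflexive_En (n : ℕ) : IsReflexive (En n) :=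
  isReflexive_of_equiv (toHilL n) (isReflexive_hilbert Hil)

end Vale.Agent.P069
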