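import Vale.Agent.P069.Space

namespace Vale.Agent.P069

open Filter Topology
open scoped ENNReal

/-- The set of all ancestors of the nodes in `S` (including the nodes themselves). -/
def sufClosure (S : Finset (List ℕ)) : Finset (List ℕ) := S.biUnion (fun s => s.tails.toFinset)

theorem mem_sufClosure {S : Finset (List ℕ)} {t : List ℕ} :
    t ∈ sufClosure S ↔ ∃ s ∈ S, t <:+ s := by
  simp [sufClosure]

theorem dc_sufClosure (S : Finset (List ℕ)) : DC (↑(sufClosure S) : Set (List ℕ)) := by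
  intro j t ht
  rw [Finset.mem_coe, mem_sufClosure] at ht ⊢
  obtain ⟨s, hs, hts⟩ := ht
  exact ⟨s, hs, (List.suffix_cons j t).trans hts⟩

theorem subset_sufClosure (S : Finset (List ℕ)) : S ⊆ sufClosure S := by
  intro s hs
  exact mem_sufClosure.2 ⟨s, hs, List.suffix_rfl⟩

theorem midProp_En (n : ℕ) : MidProp (En n) := by
  intro x η hη
  obtain ⟨xh, hxh⟩ : ∃ xh : Hil, xh = toHil n x := ⟨_, rfl⟩
  have hs := lp.hasSum_single (E := fun _ : List ℕ => ℝ) (p := 2) (by simp) xh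
  obtain ⟨S, hS⟩ : ∃ S : Finset (List ℕ), ‖xh - ∑ i ∈ S, lp.single 2 i (xh i)‖ ≤ η := by
    obtain ⟨S, hS⟩ := (hs.eventually (Metric.ball_mem_nhds xh hη)).exists
    refine ⟨S, ?_⟩
    rw [dist_comm, dist_eq_norm] at hS
    exact hS.le
  obtain ⟨A, hAdef⟩ : ∃ A : Set (List ℕ), A = ↑(sufClosure S) := ⟨_, rfl⟩
  have hA : DC A := by rw [hAdef]; exact dc_sufClosure S
  refine ⟨(toHil n).symm (restr A xh), ?_,
    (⨅ t ∈ sufClosure S, LinearMap.ker
      (lp.evalCLM ℝ (fun _ : List ℕ => ℝ) 2 t : Hil →ₗ[ℝ] ℝ)).comap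
      ((toHilL n : En n →L[ℝ] Hil) : En n →ₗ[ℝ] Hil),
    cof_comap _ (cof_biInf _ _ (fun t _ => cof_ker _)), ?_⟩
  · have e : ‖x - (toHil n).symm (restr A xh)‖ = nrm n (xh - restr A xh) := by rw [hxh]; rfl
    rw [e]
    refine le_trans (nrm_le_norm n _) (le_trans (lp.norm_mono (by simp) fun t => ?_) hS)
    rw [lp.coeFn_sub, lp.coeFn_sub, Pi.sub_apply, Pi.sub_apply, sum_single_apply]
    by_cases ht : t ∈ A
    · rw [restr_apply_of_mem xh ht, sub_self, norm_zero]
      exact norm_nonneg _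
    · rw [restr_apply_of_notMem xh ht]
      have : t ∉ S := fun h => ht (by rw [hAdef]; exact subset_sufClosure S h)
      rw [if_neg this]
  · intro y hy
    have hy' : ∀ t ∈ A, toHil n y t = 0 := by
      intro t ht
      rw [hAdef] at ht
      have h1 : toHilL n y ∈ (⨅ t ∈ sufClosure S, LinearMap.ker
        (lp.evalCLM ℝ (fun _ : List ℕ => ℝ) 2 t : Hil →ₗ[ℝ] ℝ)) := hy
      have h2 := (Submodule.mem_iInf _).1 ((Submodule.mem_iInf _).1 h1 t) ht
      exact h2
    exact mid_ineq n hA (x := restr A xh) (y := toHil n y)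
      (fun s hs => restr_apply_of_notMem xh hs) hy'

end Vale.Agent.P069
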