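import Vale.Agent.P069.Space

namespace Vale.Agent.P069

open Filter Topology
open scoped ENNReal

/-- The branch vectors: the sum of the unit vectors over the branch from the root to `s`. -/
noncomputable def bvec : List ℕ → Hil
  | [] => lp.single 2 [] (1 : ℝ)
  | (j :: s) => lp.single 2 (j :: s) (1 : ℝ) + bvec s

theorem inner_single_one (f : Hil) (t : List ℕ) : inner ℝ f (lp.single 2 t (1 : ℝ)) = f t := by
  rw [lp.inner_single_right]
  simp

theorem inner_bvec (f : Hil) (s : List ℕ) : inner ℝ f (bvec s) = psum f s := by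
  induction s with
  | nil => simp [bvec, inner_single_one]
  | cons j s ih => simp [bvec, inner_add_right, inner_single_one, ih]

theorem nrm_bvec_le {n : ℕ} {s : List ℕ} (hs : s.length ≤ n) : nrm n (bvec s) ≤ 1 := by
  refine nrm_le fun f hf => ?_
  rw [inner_bvec]
  exact le_trans (le_abs_self _) (hf.2 s hs)

theorem psum_single_of_lt (t s : List ℕ) (h : s.length < t.length) :
    psum (Pi.single t (1 : ℝ)) s = 0 := by
  induction s with
  | nil =>
    have : ([] : List ℕ) ≠ t := by
      rintro rfl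
      simp at h
    simp [Pi.single_eq_of_ne this]
  | cons j s ih =>
    have h1 : (j :: s) ≠ t := by
      rintro rfl
      simp at h
    have h2 : s.length < t.length := by
      simp only [List.length_cons] at h
      omega
    simp [Pi.single_eq_of_ne h1, ih h2]

theorem psum_single (t s : List ℕ) :
    psum (Pi.single t (1 : ℝ)) s = 0 ∨ psum (Pi.single t (1 : ℝ)) s = 1 := by
  induction s with
  | nil =>
    by_cases h : ([] : List ℕ) = t
    · subst h
      right
      simp
    · left
      simp [Pi.single_eq_of_ne h]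
  | cons j s ih =>
    by_cases h : (j :: s) = t
    · subst h
      right
      simp [psum_single_of_lt (j :: s) s (by simp)]
    · simpa [Pi.single_eq_of_ne h] using ih

theorem single_mem_W (n : ℕ) (t : List ℕ) : lp.single 2 t (1 : ℝ) ∈ W n := by
  refine ⟨by rw [lp.norm_single (by simp)]; simp, fun s _ => ?_⟩
  rw [lp.coeFn_single]
  rcases psum_single t s with h | h <;> rw [h] <;> simp

theorem one_le_nrm_single (n : ℕ) (t : List ℕ) : 1 ≤ nrm n (lp.single 2 t (1 : ℝ)) := by
  have := le_nrm (single_mem_W n t) (lp.single 2 t (1 : ℝ))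
  rw [inner_single_one] at this
  simpa using this

theorem tendsto_coord (w : Hil) (s : List ℕ) : Tendsto (fun j : ℕ => w (j :: s)) atTop (𝓝 0) := by
  have h1 : Tendsto (fun t => ‖w t‖ ^ 2) cofinite (𝓝 0) :=
    (hasSum_norm_sq w).summable.tendsto_cofinite_zero
  have h2 : Tendsto (fun t => ‖w t‖) cofinite (𝓝 0) := by
    have := (Real.continuous_sqrt.tendsto 0).comp h1
    rw [Real.sqrt_zero] at this
    refine this.congr fun t => ?_
    simp only [Function.comp_def]
    exact Real.sqrt_sq (norm_nonneg _)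
  have h3 : Tendsto (fun t => w t) cofinite (𝓝 0) := tendsto_zero_iff_norm_tendsto_zero.2 h2
  have hinj : Function.Injective (fun j : ℕ => j :: s) := fun a b h => (List.cons.inj h).1
  have h4 := h3.comp hinj.tendsto_cofinite
  rw [Nat.cofinite_eq_atTop] at h4
  exact h4

/-- The counterexample: the `ℓ²`-sum of the spaces `En n`. -/
abbrev XX : Type := lp En 2

/-- The tree of height `n` in `XX`. -/
noncomputable def tree (n : ℕ) (s : List ℕ) : XX := lp.single 2 n ((toHil n).symm (bvec s))

theorem norm_tree_le {n : ℕ} {s : List ℕ} (hs : s.length ≤ n) : ‖tree n s‖ ≤ 1 := by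
  rw [tree, lp.norm_single (by simp)]
  exact nrm_bvec_le hs

theorem tree_sub (n : ℕ) (j : ℕ) (s : List ℕ) :
    tree n (j :: s) - tree n s = lp.single 2 n ((toHil n).symm (lp.single 2 (j :: s) (1 : ℝ))) := by
  rw [tree, tree, ← lp.single_sub, ← map_sub]
  congr 2
  simp [bvec]

theorem one_le_norm_tree_nil (n : ℕ) : 1 ≤ ‖tree n []‖ := by
  rw [tree, lp.norm_single (by simp)]
  exact one_le_nrm_single n []

theorem one_le_norm_tree_sub (n : ℕ) (s : List ℕ) (j : ℕ) :
    1 ≤ ‖tree n (j :: s) - tree n s‖ := by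
  rw [tree_sub, lp.norm_single (by simp)]
  exact one_le_nrm_single n (j :: s)

theorem tendsto_tree_sub (n : ℕ) (s : List ℕ) (φ : StrongDual ℝ XX) :
    Tendsto (fun j => φ (tree n (j :: s) - tree n s)) atTop (𝓝 0) := by
  obtain ⟨ψ, hψ⟩ : ∃ ψ : StrongDual ℝ Hil, ψ = (φ.comp (lp.singleContinuousLinearMap ℝ En 2 n)).comp
      ((toHilL n).symm : Hil →L[ℝ] En n) := ⟨_, rfl⟩
  obtain ⟨w, hw⟩ : ∃ w : Hil, InnerProductSpace.toDual ℝ Hil w = ψ :=
    ⟨(InnerProductSpace.toDual ℝ Hil).symm ψ, by simp⟩
  have e : ∀ j : ℕ, φ (tree n (j :: s) - tree n s) = w (j :: s) := by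
    intro j
    rw [tree_sub, ← inner_single_one w (j :: s), ← InnerProductSpace.toDual_apply_apply, hw, hψ]
    rfl
  simp only [e]
  exact tendsto_coord w s

theorem not_aucRenormable_XX : ¬ AUCRenormable XX :=
  not_aucRenormable_of_trees fun n =>
    ⟨tree n, fun _ hs => norm_tree_le hs, one_le_norm_tree_nil n, one_le_norm_tree_sub n,
      tendsto_tree_sub n⟩

theorem not_finiteDimensional_XX : ¬ FiniteDimensional ℝ XX := by
  intro hfd
  have hbot : (⊥ : Submodule ℝ XX) ∈ cof XX := ⟨by simp, inferInstance⟩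
  obtain ⟨j, v, hv, hjv⟩ := exists_near_of_weaklyNull hbot
    (fun j => tree 0 (j :: []) - tree 0 []) (tendsto_tree_sub 0 []) (η := 1) one_pos
  rw [Submodule.mem_bot] at hv
  rw [hv, sub_zero] at hjv
  exact absurd (one_le_norm_tree_sub 0 [] j) (not_le.2 hjv)

end Vale.Agent.P069
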